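import Vale.Agent.P088.R2.H768.W.Slow

/-!
# P088, stage 3, EST': first and second derivatives at a point

`J f z a b`: `f` is `C²` at `z`, `|D f(z)| ≤ a`, `|D² f(z)| ≤ b`; sums, products, compositions.
-/

open Set Filter
open scoped ContDiff Topology

noncomputable section

namespace Vale.Agent.P088.R2.H349.EP

variable {E E' : Type*} [NormedAddCommGroup E] [NormedSpace ℝ E] [NormedAddCommGroup E']
  [NormedSpace ℝ E']

/-- First and second derivatives at a point. -/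
structure J (f : E → ℝ) (z : E) (a b : ℝ) : Prop where
  sm : ContDiffAt ℝ 2 f z
  d1 : ∀ w, |fderiv ℝ f z w| ≤ a * ‖w‖
  d2 : ∀ w w', |fderiv ℝ (fun y => fderiv ℝ f y w) z w'| ≤ b * (‖w‖ * ‖w'‖)

variable {f g r : E → ℝ} {z : E} {a b a' b' c p q : ℝ}

theorem J.mono (h : J f z a b) (ha : a ≤ a') (hb : b ≤ b') : J f z a' b' :=
  ⟨h.sm, fun w => (h.d1 w).trans (mul_le_mul_of_nonneg_right ha (norm_nonneg _)),
    fun w w' => (h.d2 w w').trans (mul_le_mul_of_nonneg_right hb (by positivity))⟩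

theorem J.congr (h : J f z a b) (e : g =ᶠ[𝓝 z] f) : J g z a b := by
  refine ⟨h.sm.congr_of_eventuallyEq e, fun w => ?_, fun w w' => ?_⟩
  · rw [e.fderiv_eq]; exact h.d1 w
  · have e2 : (fun y => fderiv ℝ g y w) =ᶠ[𝓝 z] fun y => fderiv ℝ f y w := by
      filter_upwards [e.fderiv (𝕜 := ℝ)] with y hy
      rw [hy]
    rw [e2.fderiv_eq]; exact h.d2 w w'

theorem J.df (h : J f z a b) : DifferentiableAt ℝ f z := h.sm.differentiableAt (by norm_num)

theorem dff_of {f : E → ℝ} (h : ContDiffAt ℝ 2 f z) (w : E) :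
    DifferentiableAt ℝ (fun y => fderiv ℝ f y w) z := by
  have h1 : ContDiffAt ℝ 1 (fderiv ℝ f) z := h.fderiv_right (by norm_num)
  exact (h1.clm_apply contDiffAt_const).differentiableAt (by norm_num)

theorem evd {f : E → ℝ} (h : ContDiffAt ℝ 2 f z) : ∀ᶠ y in 𝓝 z, DifferentiableAt ℝ f y := by
  filter_upwards [h.eventually (by simp)] with y hy using hy.differentiableAt (by norm_num)

theorem J.const (c : ℝ) : J (fun _ : E => c) z 0 0 := by
  refine ⟨contDiffAt_const, fun w => by simp, fun w w' => ?_⟩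
  have : (fun y : E => fderiv ℝ (fun _ : E => c) y w) = fun _ => 0 := by
    funext y
    simp
  rw [this]
  simp

theorem J.of_zero (e : f =ᶠ[𝓝 z] fun _ => 0) : J f z 0 0 := (J.const 0).congr e

/-- A function with `D f = c₁ D f₁ + c₂ D f₂`. -/
theorem J.of_two {f f₁ f₂ c₁ c₂ : E → ℝ} {a₁ b₁ a₂ b₂ p₁ q₁ p₂ q₂ : ℝ} (h₁ : J f₁ z a₁ b₁)
    (h₂ : J f₂ z a₂ b₂) (hf : ContDiffAt ℝ 2 f z) (d₁ : DifferentiableAt ℝ c₁ z)
    (d₂ : DifferentiableAt ℝ c₂ z)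
    (e : ∀ᶠ y in 𝓝 z, ∀ w, fderiv ℝ f y w = c₁ y * fderiv ℝ f₁ y w + c₂ y * fderiv ℝ f₂ y w)
    (hp₁ : |c₁ z| ≤ p₁) (hp₂ : |c₂ z| ≤ p₂) (hq₁ : ∀ w, |fderiv ℝ c₁ z w| ≤ q₁ * ‖w‖)
    (hq₂ : ∀ w, |fderiv ℝ c₂ z w| ≤ q₂ * ‖w‖) :
    J f z (p₁ * a₁ + p₂ * a₂) (p₁ * b₁ + q₁ * a₁ + (p₂ * b₂ + q₂ * a₂)) := by
  have P₁ : 0 ≤ p₁ := (abs_nonneg _).trans hp₁
  have P₂ : 0 ≤ p₂ := (abs_nonneg _).trans hp₂
  refine ⟨hf, fun w => ?_, fun w w' => ?_⟩
  · rw [e.self_of_nhds w]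
    refine (abs_add_le _ _).trans ?_
    rw [abs_mul, abs_mul]
    have k1 := mul_le_mul hp₁ (h₁.d1 w) (abs_nonneg _) P₁
    have k2 := mul_le_mul hp₂ (h₂.d1 w) (abs_nonneg _) P₂
    calc _ ≤ p₁ * (a₁ * ‖w‖) + p₂ * (a₂ * ‖w‖) := add_le_add k1 k2
      _ = _ := by ring
  · have e' : (fun y => fderiv ℝ f y w) =ᶠ[𝓝 z]
        fun y => c₁ y * fderiv ℝ f₁ y w + c₂ y * fderiv ℝ f₂ y w := by
      filter_upwards [e] with y hy using hy w
    have D₁ := dff_of h₁.sm w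
    have D₂ := dff_of h₂.sm w
    rw [e'.fderiv_eq, fderiv_fun_add (d₁.fun_mul D₁) (d₂.fun_mul D₂), fderiv_fun_mul d₁ D₁,
      fderiv_fun_mul d₂ D₂]
    simp only [_root_.add_apply, _root_.smul_apply, smul_eq_mul]
    have k1 := mul_le_mul hp₁ (h₁.d2 w w') (abs_nonneg _) P₁
    have k2 := mul_le_mul hp₂ (h₂.d2 w w') (abs_nonneg _) P₂
    have k3 := mul_le_mul (h₁.d1 w) (hq₁ w') (abs_nonneg _) ((abs_nonneg _).trans (h₁.d1 w))
    have k4 := mul_le_mul (h₂.d1 w) (hq₂ w') (abs_nonneg _) ((abs_nonneg _).trans (h₂.d1 w))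
    rw [← abs_mul] at k1 k2 k3 k4
    refine (abs_add_le _ _).trans ?_
    refine (add_le_add (abs_add_le _ _) (abs_add_le _ _)).trans ?_
    calc _ ≤ (p₁ * (b₁ * (‖w‖ * ‖w'‖)) + a₁ * ‖w‖ * (q₁ * ‖w'‖)) +
          (p₂ * (b₂ * (‖w‖ * ‖w'‖)) + a₂ * ‖w‖ * (q₂ * ‖w'‖)) :=
        add_le_add (add_le_add k1 k3) (add_le_add k2 k4)
      _ = _ := by ring

theorem J.add (hf : J f z a b) (hg : J g z a' b') : J (fun y => f y + g y) z (a + a') (b + b') := by
  have h := J.of_two (c₁ := fun _ => 1) (c₂ := fun _ => 1) (p₁ := 1) (p₂ := 1) (q₁ := 0) (q₂ := 0)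
    hf hg (hf.sm.add hg.sm) (differentiableAt_const _) (differentiableAt_const _) ?_ (by simp)
    (by simp) (by simp) (by simp)
  · refine h.mono (le_of_eq ?_) (le_of_eq ?_) <;> ring
  · filter_upwards [evd hf.sm, evd hg.sm] with y h1 h2 w
    rw [fderiv_fun_add h1 h2]
    simp

theorem J.mul (hf : J f z a b) (hg : J g z a' b') (hp : |f z| ≤ p) (hq : |g z| ≤ q) :
    J (fun y => f y * g y) z (q * a + p * a') (q * b + a' * a + (p * b' + a * a')) := by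
  refine J.of_two (c₁ := g) (c₂ := f) hf hg (hf.sm.mul hg.sm) hg.df hf.df ?_ hq hp hg.d1 hf.d1
  filter_upwards [evd hf.sm, evd hg.sm] with y h1 h2 w
  rw [fderiv_fun_mul h1 h2]
  simp only [_root_.add_apply, _root_.smul_apply, smul_eq_mul]
  ring

theorem J.cmul (c : ℝ) (hf : J f z a b) : J (fun y => c * f y) z (|c| * a) (|c| * b) := by
  have h := (J.const (z := z) c).mul hf (p := |c|) (q := |f z|) le_rfl le_rfl
  refine h.mono (le_of_eq ?_) (le_of_eq ?_) <;> ring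

/-- Functions of one variable. -/
theorem J.comp1 {F F' : ℝ → ℝ} {F'' : ℝ} (hf : J f z a b) (hF : ContDiffAt ℝ 2 F (f z))
    (h1 : ∀ᶠ t in 𝓝 (f z), HasDerivAt F (F' t) t) (h2 : HasDerivAt F' F'' (f z))
    (hp : |F' (f z)| ≤ p) (hq : |F''| ≤ q) :
    J (fun y => F (f y)) z (p * a) (p * b + q * a ^ 2) := by
  have d : HasFDerivAt (fun y => F' (f y)) (F'' • fderiv ℝ f z) z :=
    h2.comp_hasFDerivAt z hf.df.hasFDerivAt
  have h := J.of_two (c₁ := fun y => F' (f y)) (c₂ := fun _ => 0) (p₂ := 0) (q₁ := q * a)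
    (q₂ := 0) hf (J.const (z := z) 0) (hF.comp z hf.sm) d.differentiableAt
    (differentiableAt_const _) ?_ hp (by simp) ?_ (by simp)
  · refine h.mono (le_of_eq ?_) (le_of_eq ?_) <;> ring
  · have hc : ∀ᶠ y in 𝓝 z, HasDerivAt F (F' (f y)) (f y) := hf.sm.continuousAt.eventually h1
    filter_upwards [hc, evd hf.sm] with y k1 k2 w
    have k3 : HasFDerivAt (fun y => F (f y)) (F' (f y) • fderiv ℝ f y) y :=
      k1.comp_hasFDerivAt y k2.hasFDerivAt
    have k4 : fderiv ℝ (F ∘ f) y = F' (f y) • fderiv ℝ f y := k3.fderiv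
    rw [k4]
    simp
  · intro w
    rw [d.fderiv]
    simp only [_root_.smul_apply, smul_eq_mul, abs_mul]
    have := mul_le_mul hq (hf.d1 w) (abs_nonneg _) ((abs_nonneg _).trans hq)
    linarith

/-- Composition with a linear contraction. -/
theorem J.lin {f : E' → ℝ} (L : E →L[ℝ] E') (hL : ∀ w, ‖L w‖ ≤ ‖w‖) (ha : 0 ≤ a) (hb : 0 ≤ b)
    (h : J f (L z) a b) : J (fun y => f (L y)) z a b := by
  have e : ∀ y, DifferentiableAt ℝ f (L y) → ∀ w, fderiv ℝ (fun y => f (L y)) y w =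
      fderiv ℝ f (L y) (L w) := fun y hy w => by
    have : HasFDerivAt (fun y => f (L y)) ((fderiv ℝ f (L y)).comp L) y :=
      HasFDerivAt.comp y hy.hasFDerivAt L.hasFDerivAt
    rw [this.fderiv]
    rfl
  refine ⟨h.sm.comp z L.contDiff.contDiffAt, fun w => ?_, fun w w' => ?_⟩
  · rw [e z h.df]
    exact (h.d1 _).trans (mul_le_mul_of_nonneg_left (hL w) ha)
  · have e1 : (fun y => fderiv ℝ (fun y => f (L y)) y w) =ᶠ[𝓝 z]
        fun y => (fun y' => fderiv ℝ f y' (L w)) (L y) := by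
      filter_upwards [L.continuous.continuousAt.eventually (evd h.sm)] with y hy using e y hy w
    have e2 : HasFDerivAt (fun y => (fun y' => fderiv ℝ f y' (L w)) (L y))
        ((fderiv ℝ (fun y' => fderiv ℝ f y' (L w)) (L z)).comp L) z :=
      HasFDerivAt.comp z (dff_of h.sm (L w)).hasFDerivAt L.hasFDerivAt
    rw [e1.fderiv_eq, e2.fderiv]
    refine (h.d2 (L w) (L w')).trans (mul_le_mul_of_nonneg_left ?_ hb)
    exact mul_le_mul (hL w) (hL w') (norm_nonneg _) (norm_nonneg _)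

theorem two_le : (2 : WithTop ℕ∞) ≤ ∞ := by
  have : (((2 : ℕ) : ℕ∞) : WithTop ℕ∞) ≤ ∞ := by exact_mod_cast le_top
  exact this

/-- Functions of two variables. -/
theorem J.comp2 {D : ℕ → ℕ → ℝ × ℝ → ℝ} {O : Set (ℝ × ℝ)} (hO : IsOpen O)
    (sm : ContDiffOn ℝ ∞ (D 0 0) O)
    (hd : ∀ i j, ∀ x ∈ O, HasFDerivAt (D i j) (H768.W.lf (D (i + 1) j x) (D i (j + 1) x)) x)
    (hf : J f z a b) (hr : J r z a' b') (hz : (f z, r z) ∈ O) {G m g₂ o k : ℝ}
    (h10 : |D 1 0 (f z, r z)| ≤ G) (h01 : |D 0 1 (f z, r z)| ≤ m)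
    (h20 : |D 2 0 (f z, r z)| ≤ g₂) (h11 : |D 1 1 (f z, r z)| ≤ o)
    (h02 : |D 0 2 (f z, r z)| ≤ k) :
    J (fun y => D 0 0 (f y, r y)) z (G * a + m * a')
      (G * b + (g₂ * a + o * a') * a + (m * b' + (o * a + k * a') * a')) := by
  have sfr : ContDiffAt ℝ 2 (fun y => (f y, r y)) z := hf.sm.prodMk hr.sm
  have dfr : HasFDerivAt (fun y => (f y, r y)) ((fderiv ℝ f z).prod (fderiv ℝ r z)) z :=
    hf.df.hasFDerivAt.prodMk hr.df.hasFDerivAt
  have hc : ∀ i j, HasFDerivAt (fun y => D i j (f y, r y))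
      ((H768.W.lf (D (i + 1) j (f z, r z)) (D i (j + 1) (f z, r z))).comp
        ((fderiv ℝ f z).prod (fderiv ℝ r z))) z := fun i j =>
    HasFDerivAt.comp z (hd i j _ hz) dfr
  have bd : ∀ i j, ∀ A B : ℝ, |D (i + 1) j (f z, r z)| ≤ A → |D i (j + 1) (f z, r z)| ≤ B →
      ∀ w, |fderiv ℝ (fun y => D i j (f y, r y)) z w| ≤ (A * a + B * a') * ‖w‖ := by
    intro i j A B hA hB w
    rw [(hc i j).fderiv]
    simp only [ContinuousLinearMap.coe_comp, Function.comp_apply, ContinuousLinearMap.prod_apply,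
      H768.W.lf_apply]
    refine (abs_add_le _ _).trans ?_
    rw [abs_mul, abs_mul]
    have k1 := mul_le_mul hA (hf.d1 w) (abs_nonneg _) ((abs_nonneg _).trans hA)
    have k2 := mul_le_mul hB (hr.d1 w) (abs_nonneg _) ((abs_nonneg _).trans hB)
    calc _ ≤ A * (a * ‖w‖) + B * (a' * ‖w‖) := add_le_add k1 k2
      _ = _ := by ring
  refine J.of_two (c₁ := fun y => D 1 0 (f y, r y)) (c₂ := fun y => D 0 1 (f y, r y)) hf hr ?_
    (hc 1 0).differentiableAt (hc 0 1).differentiableAt ?_ h10 h01 (bd 1 0 g₂ o h20 h11)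
    (bd 0 1 o k h11 h02)
  · exact ((sm _ hz).contDiffAt (hO.mem_nhds hz)).of_le two_le |>.comp z sfr
  · have hn : ∀ᶠ y in 𝓝 z, (f y, r y) ∈ O := sfr.continuousAt.eventually (hO.mem_nhds hz)
    filter_upwards [hn, evd hf.sm, evd hr.sm] with y h1 h2 h3 w
    have h4 : HasFDerivAt (fun y => D 0 0 (f y, r y))
        ((H768.W.lf (D 1 0 (f y, r y)) (D 0 1 (f y, r y))).comp
          ((fderiv ℝ f y).prod (fderiv ℝ r y))) y :=
      HasFDerivAt.comp y (hd 0 0 _ h1) (h2.hasFDerivAt.prodMk h3.hasFDerivAt)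
    rw [h4.fderiv]
    simp

end Vale.Agent.P088.R2.H349.EP
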